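import Mathlib
import Vale.Agent.P141.Defs
import Vale.Agent.P141.Comb
import Vale.Agent.P141.EDefs
import Vale.Agent.P141.ESlab

namespace Vale.Agent.Results.P141.A_Range613

open Vale.Agent.P141
open scoped ENNReal NNReal

/-- the 38 pairs `(x,t)` carrying the mass -/
def G21 : Finset (ℤ × ℤ) :=
  {(0, -4), (1, -3), (2, -4), (2, -2), (3, -3), (3, -1), (4, -2), (4, 0), (5, -3), (5, -1),
   (6, -2), (6, 0), (7, -1), (7, 1), (8, 0), (8, 2), (9, -1), (9, 1), (10, 0), (10, 2), (11,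
   1), (11, 3), (12, 0), (12, 2), (13, 1), (13, 3), (14, 2), (14, 4), (15, 3), (15, 5), (16,
   2), (16, 4), (17, 3), (17, 5), (18, 4), (18, 6), (19, 5), (20, 6)}

/-- the integer mass (total mass 603) -/
def nu (g : ℤ × ℤ) : ℕ :=
  if g = (0, -4) then 21 else
  if g = (1, -3) then 25 else
  if g = (2, -4) then 1 else
  if g = (2, -2) then 21 else
  if g = (3, -3) then 19 else
  if g = (3, -1) then 8 else
  if g = (4, -2) then 28 else
  if g = (4, 0) then 2 else
  if g = (5, -3) then 1 else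
  if g = (5, -1) then 28 else
  if g = (6, -2) then 13 else
  if g = (6, 0) then 19 else
  if g = (7, -1) then 26 else
  if g = (7, 1) then 7 else
  if g = (8, 0) then 33 else
  if g = (8, 2) then 1 else
  if g = (9, -1) then 4 else
  if g = (9, 1) then 29 else
  if g = (10, 0) then 16 else
  if g = (10, 2) then 16 else
  if g = (11, 1) then 29 else
  if g = (11, 3) then 4 else
  if g = (12, 0) then 1 else
  if g = (12, 2) then 34 else
  if g = (13, 1) then 6 else
  if g = (13, 3) then 25 else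
  if g = (14, 2) then 19 else
  if g = (14, 4) then 12 else
  if g = (15, 3) then 29 else
  if g = (15, 5) then 1 else
  if g = (16, 2) then 1 else
  if g = (16, 4) then 29 else
  if g = (17, 3) then 7 else
  if g = (17, 5) then 19 else
  if g = (18, 4) then 21 else
  if g = (18, 6) then 2 else
  if g = (19, 5) then 24 else
  if g = (20, 6) then 22 else
  0

theorem G21_x : ∀ g ∈ G21, ∀ h ∈ G21, ((21 : ℕ) : ℤ) ∣ g.1 - h.1 → g.1 = h.1 := by decide +kernel
theorem G21_t : ∀ g ∈ G21, ∀ h ∈ G21, ((21 : ℕ) : ℤ) ∣ g.2 - h.2 → g.2 = h.2 := by decide +kernel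
theorem nu_pos : ∀ g ∈ G21, 0 < nu g := by decide +kernel
theorem G21_ne : G21.Nonempty := ⟨(0, -4), by decide +kernel⟩

theorem num_c : ∏ x ∈ proj 0 G21, push G21 nu 0 x ^ (1 * push G21 nu 0 x) ≤
    21 ^ (∑ g ∈ G21, nu g) * ∏ g ∈ G21, nu g ^ (1 * nu g) := by decide +kernel

theorem num_n : ∀ i ∈ ({1, 2, 3} : Finset ℤ),
    (∏ x ∈ proj 0 G21, push G21 nu 0 x ^ (7 * push G21 nu 0 x)) * 21 ^ (6 * ∑ g ∈ G21, nu g) *
      (∏ g ∈ G21, nu g ^ (6 * nu g)) <
      ∏ y ∈ proj i G21, push G21 nu i y ^ ((6 + 7) * push G21 nu i y) := by decide +kernel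

/-- The trilinear Hilbert transform (slopes 1,2,3) is unbounded at every Holder tuple with
`r ≤ 6/13`. -/
theorem result : ∀ p₁ p₂ p₃ r : ℝ≥0∞, IsHolderTuple p₁ p₂ p₃ r → r ≤ 6 / 13 →
    ¬ BoundedAt p₁ p₂ p₃ r := by
  intro p₁ p₂ p₃ r hH hr
  apply slab_of_nat G21 21 (by norm_num) G21_x G21_t nu nu_pos G21_ne 6 7 num_c num_n p₁ p₂ p₃ r hH
  have h1 : r.toReal ≤ 6 / 13 := by
    have := ENNReal.toReal_mono (by
      exact ENNReal.div_ne_top (by norm_num) (by norm_num)) hr
    simpa using this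
  push_cast
  linarith

end Vale.Agent.Results.P141.A_Range613
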