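import Mathlib
import Vale.Agent.P141.Defs
import Vale.Agent.P141.Holder
import Vale.Agent.P141.HolderMk
import Vale.Agent.P141.Corners
import Vale.Agent.Results.P141.A_Range613

namespace Vale.Agent.Results.P141.A0_Region

open Vale.Agent.P141
open scoped ENNReal NNReal

theorem region (p₁ p₂ p₃ r : ℝ≥0∞) (hH : IsHolderTuple p₁ p₂ p₃ r)
    (h : r ≤ 6 / 13 ∨ 2 < p₁.toReal⁻¹ + p₂.toReal⁻¹ + 2 / 3 * p₃.toReal⁻¹ ∨
      2 < p₁.toReal⁻¹ + 3 / 5 * p₂.toReal⁻¹ + p₃.toReal⁻¹ ∨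
      2 < 9 / 16 * p₁.toReal⁻¹ + p₂.toReal⁻¹ + p₃.toReal⁻¹) : ¬ BoundedAt p₁ p₂ p₃ r := by
  rcases h with h | h | h | h
  · exact Vale.Agent.Results.P141.A_Range613.result p₁ p₂ p₃ r hH h
  · exact corner3 p₁ p₂ p₃ r hH h
  · exact corner2 p₁ p₂ p₃ r hH h
  · exact corner1 p₁ p₂ p₃ r hH h

theorem exists_tuple (r : ℝ≥0∞) (h13 : 1 / 3 < r) (h12 : r < 1 / 2) :
    ∃ p₁ p₂ p₃ : ℝ≥0∞, IsHolderTuple p₁ p₂ p₃ r ∧ ¬ BoundedAt p₁ p₂ p₃ r := by
  have hr0 : 0 < r := lt_trans (by simp) h13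
  have hr1 : r < ∞ := lt_trans h12 (by simp)
  have hρ : 0 < r.toReal := ENNReal.toReal_pos hr0.ne' hr1.ne
  have hρ13 : 1 / 3 < r.toReal := by
    have := (ENNReal.toReal_lt_toReal (by simp) hr1.ne).2 h13
    simpa using this
  have hρ12 : r.toReal < 1 / 2 := by
    have := (ENNReal.toReal_lt_toReal hr1.ne (by simp)).2 h12
    simpa using this
  set u := r.toReal⁻¹ with hu
  have hu3 : u < 3 := by
    rw [hu, inv_lt_comm₀ hρ (by norm_num)]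
    linarith
  have hu2 : 2 < u := by
    rw [hu, lt_inv_comm₀ (by norm_num) hρ]
    linarith
  by_cases hr : r ≤ 6 / 13
  · obtain ⟨hH, _⟩ := holder_mk (u / 3) (u / 3) (u / 3) (by linarith) (by linarith) (by linarith)
      (by linarith) (by linarith) (by linarith) r hr0 hr1 (by rw [← hu]; ring)
    exact ⟨_, _, _, hH, region _ _ _ _ hH (Or.inl hr)⟩
  · have hρ613 : 6 / 13 < r.toReal := by
      have := (ENNReal.toReal_lt_toReal (by
        exact ENNReal.div_ne_top (by norm_num) (by norm_num)) hr1.ne).2 (not_le.1 hr)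
      simpa using this
    have hu136 : u < 13 / 6 := by
      rw [hu, inv_lt_comm₀ hρ (by norm_num)]
      norm_num
      linarith
    obtain ⟨hH, e1, e2, e3⟩ := holder_mk (2 - u / 2) (2 - u / 2) (2 * (u - 2)) (by linarith)
      (by linarith) (by linarith) (by linarith) (by linarith) (by linarith) r hr0 hr1
      (by rw [← hu]; ring)
    refine ⟨_, _, _, hH, region _ _ _ _ hH (Or.inr (Or.inl ?_))⟩
    rw [e1, e3]
    linarith

/-- Unboundedness region for the trilinear Hilbert transform (slopes 1,2,3), and the fact that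
for every `r` in `(1/3, 1/2)` some Holder tuple with this `r` is a tuple of unboundedness.
Here `pᵢ.toReal⁻¹` is `1/pᵢ` (and `0` when `pᵢ = ∞`). -/
theorem result :
    (∀ p₁ p₂ p₃ r : ℝ≥0∞, IsHolderTuple p₁ p₂ p₃ r →
      (r ≤ 6 / 13 ∨ 2 < p₁.toReal⁻¹ + p₂.toReal⁻¹ + 2 / 3 * p₃.toReal⁻¹ ∨
        2 < p₁.toReal⁻¹ + 3 / 5 * p₂.toReal⁻¹ + p₃.toReal⁻¹ ∨
        2 < 9 / 16 * p₁.toReal⁻¹ + p₂.toReal⁻¹ + p₃.toReal⁻¹) → ¬ BoundedAt p₁ p₂ p₃ r) ∧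
    (∀ r : ℝ≥0∞, 1 / 3 < r → r < 1 / 2 →
      ∃ p₁ p₂ p₃ : ℝ≥0∞, IsHolderTuple p₁ p₂ p₃ r ∧ ¬ BoundedAt p₁ p₂ p₃ r) :=
  ⟨region, exists_tuple⟩

end Vale.Agent.Results.P141.A0_Region
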