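import Mathlib
import Vale.Agent.P141.Defs
import Vale.Agent.P141.Comb
import Vale.Agent.P141.EDefs
import Vale.Agent.P141.ELin

namespace Vale.Agent.Results.P141.B_EntropyCriterion

open Vale.Agent.P141
open Finset
open scoped ENNReal NNReal

/-- Entropy criterion for unboundedness of the trilinear Hilbert transform.  `G` is a finite
nonempty set of integer pairs `(x,t)`, `b ≥ 2` an integer such that distinct `x`-coordinates and
distinct `t`-coordinates occurring in `G` are incongruent mod `b`, and `ν` a positive integer mass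
on `G`.  Put `D = ∑ ν`, `E_G = ∑ ν log ν` and `E_i = ∑_y f_i(y) log f_i(y)`, where `f_i` is the
push-forward of `ν` under `(x,t) ↦ x - i t`.  Then `T` is unbounded at every Holder tuple with
`E_G + (1/r - 1) E_0 + D log b < E_1/p₁ + E_2/p₂ + E_3/p₃`. -/
theorem result : ∀ (G : Finset (ℤ × ℤ)) (b : ℕ), 2 ≤ b →
    (∀ g ∈ G, ∀ h ∈ G, (b : ℤ) ∣ g.1 - h.1 → g.1 = h.1) →
    (∀ g ∈ G, ∀ h ∈ G, (b : ℤ) ∣ g.2 - h.2 → g.2 = h.2) →
    ∀ ν : ℤ × ℤ → ℕ, (∀ g ∈ G, 0 < ν g) → G.Nonempty →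
    ∀ p₁ p₂ p₃ r : ℝ≥0∞, IsHolderTuple p₁ p₂ p₃ r →
    (∑ g ∈ G, (ν g : ℝ) * Real.log (ν g)) + (r.toReal⁻¹ - 1) * elog (proj 0 G) (push G ν 0)
        + (∑ g ∈ G, (ν g : ℝ)) * Real.log b <
      p₁.toReal⁻¹ * elog (proj 1 G) (push G ν 1) + p₂.toReal⁻¹ * elog (proj 2 G) (push G ν 2)
        + p₃.toReal⁻¹ * elog (proj 3 G) (push G ν 3) →
    ¬ BoundedAt p₁ p₂ p₃ r :=
  fun G b hb hx ht ν hν hG p₁ p₂ p₃ r hH hE =>
    unbounded_of_measure_lin G b hb hx ht ν hν hG p₁ p₂ p₃ r hH hE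

end Vale.Agent.Results.P141.B_EntropyCriterion
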