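import Mathlib
import Vale.Agent.P141.Defs
import Vale.Agent.P141.Comb
import Vale.Agent.P141.EDefs
import Vale.Agent.Results.P141.A0_Region
import Vale.Agent.Results.P141.B_EntropyCriterion

namespace Vale.Agent.Results.P141.A00_Combined

open Vale.Agent.P141
open Finset
open scoped ENNReal NNReal

/-- Unboundedness of the trilinear Hilbert transform (slopes 1,2,3): an explicit region of Holder
tuples, the fact that every `r` in `(1/3, 1/2)` occurs at a tuple of unboundedness, and the general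
entropy criterion.  Here `pᵢ.toReal⁻¹` is `1/pᵢ` (and `0` when `pᵢ = ∞`). -/
theorem result :
    (∀ p₁ p₂ p₃ r : ℝ≥0∞, IsHolderTuple p₁ p₂ p₃ r →
      (r ≤ 6 / 13 ∨ 2 < p₁.toReal⁻¹ + p₂.toReal⁻¹ + 2 / 3 * p₃.toReal⁻¹ ∨
        2 < p₁.toReal⁻¹ + 3 / 5 * p₂.toReal⁻¹ + p₃.toReal⁻¹ ∨
        2 < 9 / 16 * p₁.toReal⁻¹ + p₂.toReal⁻¹ + p₃.toReal⁻¹) → ¬ BoundedAt p₁ p₂ p₃ r) ∧
    (∀ r : ℝ≥0∞, 1 / 3 < r → r < 1 / 2 →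
      ∃ p₁ p₂ p₃ : ℝ≥0∞, IsHolderTuple p₁ p₂ p₃ r ∧ ¬ BoundedAt p₁ p₂ p₃ r) ∧
    (∀ (G : Finset (ℤ × ℤ)) (b : ℕ), 2 ≤ b →
      (∀ g ∈ G, ∀ h ∈ G, (b : ℤ) ∣ g.1 - h.1 → g.1 = h.1) →
      (∀ g ∈ G, ∀ h ∈ G, (b : ℤ) ∣ g.2 - h.2 → g.2 = h.2) →
      ∀ ν : ℤ × ℤ → ℕ, (∀ g ∈ G, 0 < ν g) → G.Nonempty →
      ∀ p₁ p₂ p₃ r : ℝ≥0∞, IsHolderTuple p₁ p₂ p₃ r →
      (∑ g ∈ G, (ν g : ℝ) * Real.log (ν g)) + (r.toReal⁻¹ - 1) * elog (proj 0 G) (push G ν 0)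
          + (∑ g ∈ G, (ν g : ℝ)) * Real.log b <
        p₁.toReal⁻¹ * elog (proj 1 G) (push G ν 1) + p₂.toReal⁻¹ * elog (proj 2 G) (push G ν 2)
          + p₃.toReal⁻¹ * elog (proj 3 G) (push G ν 3) →
      ¬ BoundedAt p₁ p₂ p₃ r) :=
  ⟨A0_Region.result.1, A0_Region.result.2, B_EntropyCriterion.result⟩

end Vale.Agent.Results.P141.A00_Combined
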