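import Mathlib
import Vale.Agent.P141.Defs
import Vale.Agent.P141.Comb
import Vale.Agent.P141.Main
import Vale.Agent.P141.Holder

namespace Vale.Agent.Results.P141.M_Range37

open Vale.Agent.P141
open scoped ENNReal NNReal

/-- the 17 point configuration of pairs `(x,t)` -/
def G17 : Finset (ℤ × ℤ) :=
  {(2, 2), (3, 3), (4, 4), (5, 3), (6, 4), (7, 5), (8, 4), (9, 5), (10, 6), (11, 7),
   (12, 6), (13, 7), (14, 8), (15, 9), (16, 8), (17, 9), (18, 10)}

theorem G17_card : G17.card = 17 := by decide +kernel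
theorem G17_p1 : (proj 1 G17).card = 5 := by decide +kernel
theorem G17_p2 : (proj 2 G17).card = 5 := by decide +kernel
theorem G17_p3 : (proj 3 G17).card = 5 := by decide +kernel
theorem G17_inj : ∀ g ∈ G17, ∀ h ∈ G17, ((17 : ℕ) : ℤ) ∣ g.1 - h.1 → g = h := by decide +kernel

theorem numeric (u : ℝ) (hu : 7 / 3 ≤ u) : (17 : ℝ) * (5 : ℝ) ^ u < (17 : ℝ) ^ u := by
  have h1 : (17 : ℝ) ^ u = (5 : ℝ) ^ u * ((17 : ℝ) / 5) ^ u := by
    rw [← Real.mul_rpow (by norm_num) (by norm_num)]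
    norm_num
  have h2 : ((17 : ℝ) / 5) ^ ((7 : ℝ) / 3) ≤ ((17 : ℝ) / 5) ^ u :=
    Real.rpow_le_rpow_of_exponent_le (by norm_num) hu
  have h3 : (17 : ℝ) < ((17 : ℝ) / 5) ^ ((7 : ℝ) / 3) := by
    have e : ((17 : ℝ) / 5) ^ ((7 : ℝ) / 3) = ((((17 : ℝ) / 5) ^ (7 : ℕ)) : ℝ) ^ ((1 : ℝ) / 3) := by
      rw [← Real.rpow_natCast, ← Real.rpow_mul (by norm_num)]
      norm_num
    have e2 : (17 : ℝ) = (((17 : ℝ) ^ (3 : ℕ)) : ℝ) ^ ((1 : ℝ) / 3) := by
      rw [← Real.rpow_natCast, ← Real.rpow_mul (by norm_num)]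
      norm_num
    rw [e]
    nth_rewrite 1 [e2]
    exact Real.rpow_lt_rpow (by norm_num) (by norm_num) (by norm_num)
  have h5 : (0 : ℝ) < (5 : ℝ) ^ u := Real.rpow_pos_of_pos (by norm_num) u
  rw [h1, mul_comm (17 : ℝ)]
  exact mul_lt_mul_of_pos_left (lt_of_lt_of_le h3 h2) h5

/-- The trilinear Hilbert transform (slopes 1,2,3) is unbounded at every Holder tuple with
`r ≤ 3/7`. -/
theorem result : ∀ p₁ p₂ p₃ r : ℝ≥0∞, IsHolderTuple p₁ p₂ p₃ r → r ≤ 3 / 7 →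
    ¬ BoundedAt p₁ p₂ p₃ r := by
  intro p₁ p₂ p₃ r hH hr
  have hrel := holder_real hH
  obtain ⟨_, _, _, hr0, hr1, _⟩ := hH
  apply unbounded_of_config G17 17 (by norm_num) G17_inj p₁ p₂ p₃ r hr0 hr1
  rw [G17_card, G17_p1, G17_p2, G17_p3, hrel]
  have hu : (7 : ℝ) / 3 ≤ p₁.toReal⁻¹ + p₂.toReal⁻¹ + p₃.toReal⁻¹ := by
    rw [← hrel]
    have h1 : r.toReal ≤ 3 / 7 := by
      have := ENNReal.toReal_mono (by
        exact ENNReal.div_ne_top (by norm_num) (by norm_num)) hr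
      simpa using this
    have h0 : 0 < r.toReal := ENNReal.toReal_pos (ne_of_gt hr0) (ne_of_lt hr1)
    rw [le_inv_comm₀ (by norm_num) h0]
    norm_num
    linarith
  have := numeric _ hu
  rw [Real.rpow_add (by norm_num), Real.rpow_add (by norm_num)] at this
  push_cast
  exact this

end Vale.Agent.Results.P141.M_Range37
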